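import Mathlib

/-!
# Finite injective coresolutions

Let `0 → L → E 0 → E 1 → ⋯ → E d → E (d+1) → 0` be exact with all `E n` injective, `L = ker (∂ 0)`.
Then `L` has injective dimension at most `d + 1`, and if `Ext^{d+1}(M, L) = 0` then every map
`M → E (d+1)` lifts along `∂ d : E d → E (d+1)`.

Proof sketch: induction on `d`, for all sequences `(E, ∂)`.
`d = 0`: the short complex `0 → ker (∂ 0) → E 0 → E 1 → 0` is short exact
(`LinearMap.shortExact_shortComplexKer`); use `ShortComplex.ShortExact.hasInjectiveDimensionLT_X₁`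
(or the `_iff` lemmas in `Mathlib/CategoryTheory/Abelian/Injective/Dimension.lean`) and
`Ext.covariant_sequence_exact₃` with `Ext.mk₀` / `Ext.homEquiv₀` for the lifting.
`d + 1`: let `L' = ker (∂ 1) = range (∂ 0)`. The sequence `0 → L → E 0 → L' → 0` is short exact
(corestrict `∂ 0`); as `E 0` is injective, `Ext^{d+2}(M, L) = 0` implies `Ext^{d+1}(M, L') = 0`
(`Ext.covariant_sequence_exact₁`/`₃` and `Ext.eq_zero_of_injective`). Apply the induction hypothesis to the
shifted sequence `fun n => E (n + 1)`.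
See `Vale/Agent/P176/CoDelooping.lean` and `Vale/Agent/P176/Basic.lean` for similar arguments.
-/

universe u

open CategoryTheory Abelian

namespace Vale.Agent.P176.Deloop

variable {A : Type u} [Ring A]

/-- one step: the kernel of a surjection from an injective module -/
theorem hasInjectiveDimensionLT_ker_of_surjective {X Y : Type u} [AddCommGroup X] [Module A X]
    [AddCommGroup Y] [Module A Y] (hX : Module.Injective A X) (f : X →ₗ[A] Y)
    (hf : Function.Surjective f) (n : ℕ) (hY : HasInjectiveDimensionLT (ModuleCat.of A Y) (n + 1)) :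
    HasInjectiveDimensionLT (ModuleCat.of A (LinearMap.ker f)) (n + 2) := by
  have hS := LinearMap.shortExact_shortComplexKer hf
  have hI : Injective (ModuleCat.of A X) := Module.injective_object_of_injective_module A X
  have h2 : HasInjectiveDimensionLT (ModuleCat.of A X) (n + 1 + 1) :=
    hasInjectiveDimensionLT_of_ge _ 1 _ (by omega)
  exact hS.hasInjectiveDimensionLT_X₁ (n + 1) hY h2

theorem ext_subsingleton_of_ker {X Y : Type u} [AddCommGroup X] [Module A X]
    [AddCommGroup Y] [Module A Y] (hX : Module.Injective A X) (f : X →ₗ[A] Y)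
    (hf : Function.Surjective f) (M : ModuleCat.{u} A) (e : ℕ)
    (h : Subsingleton (Ext M (ModuleCat.of A (LinearMap.ker f)) (e + 1 + 1))) :
    Subsingleton (Ext M (ModuleCat.of A Y) (e + 1)) := by
  have hS := LinearMap.shortExact_shortComplexKer hf
  have hI : Injective (ModuleCat.of A X) := Module.injective_object_of_injective_module A X
  refine ⟨fun x y ↦ ?_⟩
  have key : ∀ z : Ext M (ModuleCat.of A Y) (e + 1), z = 0 := by
    intro z
    obtain ⟨w, rfl⟩ := Ext.covariant_sequence_exact₃ M hS z rfl (h.elim _ _)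
    have hw : w = 0 := Ext.eq_zero_of_injective (I := ModuleCat.of A X) w
    rw [hw, Ext.zero_comp]
  rw [key x, key y]

theorem exists_lift_of_ker {X Y : Type u} [AddCommGroup X] [Module A X]
    [AddCommGroup Y] [Module A Y] (f : X →ₗ[A] Y)
    (hf : Function.Surjective f) (M : Type u) [AddCommGroup M] [Module A M]
    (h : Subsingleton (Ext (ModuleCat.of A M) (ModuleCat.of A (LinearMap.ker f)) 1))
    (φ : M →ₗ[A] Y) : ∃ g : M →ₗ[A] X, f ∘ₗ g = φ := by
  have hS := LinearMap.shortExact_shortComplexKer hf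
  obtain ⟨w, hw⟩ := Ext.covariant_sequence_exact₃ (ModuleCat.of A M) hS
    (Ext.mk₀ (ModuleCat.ofHom φ)) (zero_add 1) (h.elim _ _)
  obtain ⟨g, rfl⟩ := (Ext.mk₀_bijective _ _).2 w
  rw [Ext.mk₀_comp_mk₀, (Ext.mk₀_bijective _ _).1.eq_iff] at hw
  refine ⟨g.hom, ?_⟩
  have := congrArg ModuleCat.Hom.hom hw
  simpa using this

theorem hasInjectiveDimensionLT_ker (d : ℕ) (E : ℕ → Type u) [∀ n, AddCommGroup (E n)]
    [∀ n, Module A (E n)] (hE : ∀ n, Module.Injective A (E n)) (δ : ∀ n, E n →ₗ[A] E (n + 1))
    (hex : ∀ n, n < d → Function.Exact (δ n) (δ (n + 1))) (hsurj : Function.Surjective (δ d)) :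
    HasInjectiveDimensionLT (ModuleCat.of A (LinearMap.ker (δ 0))) (d + 2) := by
  induction d generalizing E with
  | zero =>
    have hI : Injective (ModuleCat.of A (E 1)) := Module.injective_object_of_injective_module A _
    exact hasInjectiveDimensionLT_ker_of_surjective (hE 0) (δ 0) hsurj 0 inferInstance
  | succ d ih =>
    have h1 := ih (fun n => E (n + 1)) (fun n => hE (n + 1)) (fun n => δ (n + 1))
      (fun n hn => hex (n + 1) (by omega)) hsurj
    have h01 := hex 0 (by omega)
    let f : E 0 →ₗ[A] LinearMap.ker (δ 1) :=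
      (δ 0).codRestrict _ (fun x => LinearMap.mem_ker.2 (h01.apply_apply_eq_zero x))
    have hf : Function.Surjective f := by
      rintro ⟨y, hy⟩
      obtain ⟨x, rfl⟩ := (h01 y).1 (LinearMap.mem_ker.1 hy)
      exact ⟨x, rfl⟩
    have h2 := hasInjectiveDimensionLT_ker_of_surjective (hE 0) f hf (d + 1) h1
    have hk : LinearMap.ker f = LinearMap.ker (δ 0) := LinearMap.ker_codRestrict _ _ _
    rw [hk] at h2
    exact h2

theorem exists_lift_of_ext_subsingleton (d : ℕ) (E : ℕ → Type u) [∀ n, AddCommGroup (E n)]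
    [∀ n, Module A (E n)] (hE : ∀ n, Module.Injective A (E n)) (δ : ∀ n, E n →ₗ[A] E (n + 1))
    (hex : ∀ n, n < d → Function.Exact (δ n) (δ (n + 1))) (hsurj : Function.Surjective (δ d))
    (M : Type u) [AddCommGroup M] [Module A M]
    (hExt : Subsingleton (Ext (ModuleCat.of A M) (ModuleCat.of A (LinearMap.ker (δ 0))) (d + 1)))
    (h : M →ₗ[A] E (d + 1)) : ∃ g : M →ₗ[A] E d, δ d ∘ₗ g = h := by
  induction d generalizing E with
  | zero => exact exists_lift_of_ker (δ 0) hsurj M hExt h
  | succ d ih =>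
    have h01 := hex 0 (by omega)
    let f : E 0 →ₗ[A] LinearMap.ker (δ 1) :=
      (δ 0).codRestrict _ (fun x => LinearMap.mem_ker.2 (h01.apply_apply_eq_zero x))
    have hf : Function.Surjective f := by
      rintro ⟨y, hy⟩
      obtain ⟨x, rfl⟩ := (h01 y).1 (LinearMap.mem_ker.1 hy)
      exact ⟨x, rfl⟩
    have hk : LinearMap.ker f = LinearMap.ker (δ 0) := LinearMap.ker_codRestrict _ _ _
    rw [← hk] at hExt
    have h2 := ext_subsingleton_of_ker (hE 0) f hf (ModuleCat.of A M) d hExt
    exact ih (fun n => E (n + 1)) (fun n => hE (n + 1)) (fun n => δ (n + 1))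
      (fun n hn => hex (n + 1) (by omega)) hsurj h2 h

end Vale.Agent.P176.Deloop
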