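import Mathlib

/-!
# Delooping levels and derived delooping levels: definitions and the vanishing lemma
-/

universe u

open CategoryTheory Abelian

namespace Vale.Agent.P176.Deloop

variable {A : Type u} [Ring A]

/-- `IsSyzygy m Z W` : `W` is an `m`-th syzygy of `Z`, i.e. there is an exact sequence
`0 → W → P_{m-1} → ⋯ → P_0 → Z → 0` with all `P_j` projective (spliced from short exact
sequences). -/
inductive IsSyzygy : ℕ → ModuleCat.{u} A → ModuleCat.{u} A → Prop
  | zero (Z : ModuleCat.{u} A) : IsSyzygy 0 Z Z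
  | succ {m : ℕ} {Z : ModuleCat.{u} A} (S : ShortComplex (ModuleCat.{u} A))
      (hS : S.ShortExact) (hP : Projective S.X₂) (h : IsSyzygy m Z S.X₃) :
      IsSyzygy (m + 1) Z S.X₁

/-- `IsDelooped k n C` : some `n`-th syzygy of `C` is, up to a projective direct summand, a direct
summand (retract) of an `(n + k)`-th syzygy of some module; in the usual terminology, the
`k`-delooping level of `C` is at most `n`. -/
def IsDelooped (k n : ℕ) (C : ModuleCat.{u} A) : Prop :=
  ∃ W N W' P : ModuleCat.{u} A, IsSyzygy n C W ∧ IsSyzygy (n + k) N W' ∧ Projective P ∧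
    Nonempty (Retract W (W' ⊞ P))

/-- `DerivedDelooping m i M` : there is an exact sequence
`0 → C_n → ⋯ → C_{i+1} → C_i → M → 0` with `n ≤ m` such that the `(j+1)`-delooping level of `C_j` is
at most `m - j` for all `j`. For `i = 0` this says that the derived delooping level of `M` is at
most `m`. -/
inductive DerivedDelooping (m : ℕ) : ℕ → ModuleCat.{u} A → Prop
  | base {i : ℕ} {M : ModuleCat.{u} A} (hi : i ≤ m) (h : IsDelooped (i + 1) (m - i) M) :
      DerivedDelooping m i M
  | step {i : ℕ} (S : ShortComplex (ModuleCat.{u} A)) (hS : S.ShortExact)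
      (h₂ : IsDelooped (i + 1) (m - i) S.X₂) (h₁ : DerivedDelooping m (i + 1) S.X₁) :
      DerivedDelooping m i S.X₃

lemma subsingleton_of_forall_eq_zero {G : Type*} [Zero G] (h : ∀ z : G, z = 0) : Subsingleton G :=
  ⟨fun x y => by rw [h x, h y]⟩

/-- Dimension shifting, from the module to its syzygy. -/
lemma IsSyzygy.ext_subsingleton (L : ModuleCat.{u} A) {m : ℕ} {Z W : ModuleCat.{u} A}
    (h : IsSyzygy m Z W) :
    ∀ e : ℕ, Subsingleton (Ext Z L (e + 1 + m)) → Subsingleton (Ext W L (e + 1)) := by
  induction h with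
  | zero Z => intro e h; exact h
  | @succ m Z S hS hP h ih =>
    intro e he
    have h3 : Subsingleton (Ext S.X₃ L (e + 1 + 1)) := by
      apply ih (e + 1)
      have : e + 1 + 1 + m = e + 1 + (m + 1) := by omega
      rw [this]
      exact he
    apply subsingleton_of_forall_eq_zero
    intro z
    obtain ⟨w, rfl⟩ := Ext.contravariant_sequence_exact₁ hS L z (n₁ := e + 1 + 1) (by omega)
      (Subsingleton.elim _ _)
    rw [Ext.eq_zero_of_projective w, Ext.comp_zero]

/-- Dimension shifting, from the syzygy to the module. -/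
lemma IsSyzygy.ext_subsingleton' (L : ModuleCat.{u} A) {m : ℕ} {Z W : ModuleCat.{u} A}
    (h : IsSyzygy m Z W) :
    ∀ e : ℕ, Subsingleton (Ext W L (e + 1)) → Subsingleton (Ext Z L (e + 1 + m)) := by
  induction h with
  | zero Z => intro e h; exact h
  | @succ m Z S hS hP h ih =>
    intro e he
    have h3 : Subsingleton (Ext S.X₃ L (e + 1 + 1)) := by
      apply subsingleton_of_forall_eq_zero
      intro z
      obtain ⟨w, rfl⟩ := Ext.contravariant_sequence_exact₃ hS L z
        (Ext.eq_zero_of_projective _) (n₀ := e + 1) (by omega)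
      rw [Subsingleton.elim w 0, Ext.comp_zero]
    have := ih (e + 1) h3
    have h' : e + 1 + 1 + m = e + 1 + (m + 1) := by omega
    rw [h'] at this
    exact this

lemma ext_subsingleton_of_retract (L : ModuleCat.{u} A) (e : ℕ) {C D : ModuleCat.{u} A}
    (r : Retract C D) (h : Subsingleton (Ext D L e)) : Subsingleton (Ext C L e) := by
  apply subsingleton_of_forall_eq_zero
  intro z
  rw [← z.mk₀_id_comp, ← r.retract, ← Ext.mk₀_comp_mk₀, Ext.comp_assoc_of_second_deg_zero,
    Subsingleton.elim ((Ext.mk₀ r.r).comp z (zero_add e)) 0, Ext.comp_zero]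

lemma ext_subsingleton_X₂ (L : ModuleCat.{u} A) (e : ℕ) {S : ShortComplex (ModuleCat.{u} A)}
    (hS : S.ShortExact) (h₁ : Subsingleton (Ext S.X₁ L e)) (h₃ : Subsingleton (Ext S.X₃ L e)) :
    Subsingleton (Ext S.X₂ L e) := by
  apply subsingleton_of_forall_eq_zero
  intro z
  obtain ⟨w, rfl⟩ := Ext.contravariant_sequence_exact₂ hS L z (Subsingleton.elim _ _)
  rw [Subsingleton.elim w 0, Ext.comp_zero]

lemma IsDelooped.ext_subsingleton (L : ModuleCat.{u} A) {k n : ℕ} {C : ModuleCat.{u} A}
    (h : IsDelooped k n C) (e : ℕ) [HasInjectiveDimensionLT L (e + 1 + (n + k))] :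
    Subsingleton (Ext C L (e + 1 + n)) := by
  obtain ⟨W, N, W', P, hW, hW', hP, ⟨r⟩⟩ := h
  apply hW.ext_subsingleton' L e
  apply ext_subsingleton_of_retract L (e + 1) r
  refine ext_subsingleton_X₂ L (e + 1)
    (ShortComplex.Splitting.ofHasBinaryBiproduct W' P).shortExact ?_ ?_
  · exact hW'.ext_subsingleton L e (HasInjectiveDimensionLT.subsingleton L _ _ le_rfl N)
  · exact subsingleton_of_forall_eq_zero fun x => Ext.eq_zero_of_projective x

lemma DerivedDelooping.le {m i : ℕ} {M : ModuleCat.{u} A} (h : DerivedDelooping m i M) :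
    i ≤ m := by
  induction h with
  | base hi _ => exact hi
  | step _ _ _ _ ih => omega

/-- The vanishing lemma: if the derived delooping level of `M` is at most `m` and `L` has finite
injective dimension `e > m`, then `Ext^e(M, L) = 0`. -/
lemma DerivedDelooping.ext_subsingleton (L : ModuleCat.{u} A) {m i : ℕ} {M : ModuleCat.{u} A}
    (h : DerivedDelooping m i M) :
    ∀ e : ℕ, m < e + i → HasInjectiveDimensionLT L (e + i + 1) → Subsingleton (Ext M L e) := by
  induction h with
  | @base i M hi h =>
    intro e he hL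
    obtain ⟨e', rfl⟩ : ∃ e', e = e' + 1 + (m - i) := ⟨e - 1 - (m - i), by omega⟩
    have : HasInjectiveDimensionLT L (e' + 1 + (m - i + (i + 1))) := by
      have h' : e' + 1 + (m - i + (i + 1)) = e' + 1 + (m - i) + i + 1 := by omega
      rw [h']; exact hL
    exact h.ext_subsingleton L e'
  | @step i S hS h₂ h₁ ih =>
    intro e he hL
    have him : i + 1 ≤ m := h₁.le
    have h2 : Subsingleton (Ext S.X₂ L e) := by
      obtain ⟨e', rfl⟩ : ∃ e', e = e' + 1 + (m - i) := ⟨e - 1 - (m - i), by omega⟩
      have : HasInjectiveDimensionLT L (e' + 1 + (m - i + (i + 1))) := by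
        have h' : e' + 1 + (m - i + (i + 1)) = e' + 1 + (m - i) + i + 1 := by omega
        rw [h']; exact hL
      exact h₂.ext_subsingleton L e'
    obtain ⟨e, rfl⟩ : ∃ e', e = e' + 1 := ⟨e - 1, by omega⟩
    have h1 : Subsingleton (Ext S.X₁ L e) := by
      apply ih e (by omega)
      have h' : e + (i + 1) + 1 = e + 1 + i + 1 := by omega
      rw [h']; exact hL
    apply subsingleton_of_forall_eq_zero
    intro z
    obtain ⟨w, rfl⟩ := Ext.contravariant_sequence_exact₃ hS L z (Subsingleton.elim _ _)
      (n₀ := e) (by omega)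
    rw [Subsingleton.elim w 0, Ext.comp_zero]

end Vale.Agent.P176.Deloop
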