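import Vale.Agent.P176.Deloop.DualDefs
import Vale.Agent.P176.Rickard.DALemmas

/-!
# The module `NA` is isomorphic to `DA`

Proof sketch. `equivDA φ = (y ↦ φ (op y))`; it is `A`-linear because
`(a • φ) (op y) = φ (op a * op y) = φ (op (y * a))`. Injectivity of the module `NA` follows from
`DA.baer` and `Module.Baer.of_equiv`, finiteness from `DA.finite` and `Module.Finite.equiv`.
-/

universe u

namespace Vale.Agent.P176.Deloop

open Vale.Agent.P176.Rickard MulOpposite

variable {k : Type u} {A : Type u} [Field k] [Ring A] [Algebra k A]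

namespace NA

/-- The isomorphism from `NA` to `DA`. -/
noncomputable def equivDA : NA k A ≃ₗ[A] DA k A where
  toFun φ := DA.ofLin (φ.toDA.toLin ∘ₗ (opLinearEquiv k : A ≃ₗ[k] Aᵐᵒᵖ).toLinearMap)
  map_add' φ ψ := by ext x; rfl
  map_smul' a φ := by
    ext x
    change φ.toDA (op a * op x) = φ.toDA (op (x * a))
    rw [op_mul]
  invFun ψ := of (DA.ofLin (ψ.toLin ∘ₗ (opLinearEquiv k : A ≃ₗ[k] Aᵐᵒᵖ).symm.toLinearMap))
  left_inv φ := by ext x; rfl
  right_inv ψ := by ext x; rfl

/-- `NA` is isomorphic to `DA` as a left `A`-module. -/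
theorem nonempty_equivDA : Nonempty (NA k A ≃ₗ[A] DA k A) := ⟨equivDA⟩

instance injective : Module.Injective A (NA k A) :=
  (Module.Baer.of_equiv (equivDA (k := k) (A := A)).symm DA.baer).injective

instance finite [Module.Finite k A] : Module.Finite A (NA k A) :=
  Module.Finite.equiv (equivDA (k := k) (A := A)).symm

end NA

end Vale.Agent.P176.Deloop
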