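import Vale.Agent.P176.Deloop.DualDefs

/-!
# Exactness of the dual complex
-/

universe u

namespace Vale.Agent.P176.Deloop

open Vale.Agent.P176.Rickard MulOpposite Finsupp

variable {k : Type u} {A : Type u} [Field k] [Ring A] [Algebra k A]
variable {T T' T'' : Type u}

lemma ev_add (ξ : T → NA k A) (f g : T →₀ Aᵐᵒᵖ) : ev ξ (f + g) = ev ξ f + ev ξ g := by
  unfold ev
  exact Finsupp.sum_add_index' (fun t => DA.map_zero' _) (fun t b c => DA.map_add' _ b c)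

lemma ev_smul (ξ : T → NA k A) (c : k) (f : T →₀ Aᵐᵒᵖ) : ev ξ (c • f) = c * ev ξ f := by
  unfold ev
  rw [Finsupp.sum_smul_index' (fun t => DA.map_zero' _), Finsupp.mul_sum]
  exact Finsupp.sum_congr fun t _ => DA.map_smul' _ c _

lemma ev_single (ξ : T → NA k A) (t : T) (b : Aᵐᵒᵖ) : ev ξ (single t b) = (ξ t).toDA b := by
  unfold ev
  exact Finsupp.sum_single_index (DA.map_zero' _)

lemma ev_injective {ξ ξ' : T → NA k A} (h : ∀ f, ev ξ f = ev ξ' f) : ξ = ξ' := by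
  funext t
  ext b
  rw [← ev_single, ← ev_single, h]

/-- `ev ξ` as a linear form. -/
noncomputable def evLin (ξ : T → NA k A) : (T →₀ Aᵐᵒᵖ) →ₗ[k] k where
  toFun := ev ξ
  map_add' := ev_add ξ
  map_smul' := ev_smul ξ

lemma ev_surjective (ζ : (T →₀ Aᵐᵒᵖ) →ₗ[k] k) : ∃ ξ : T → NA k A, ∀ f, ev ξ f = ζ f := by
  refine ⟨fun t => NA.of (DA.ofLin (ζ ∘ₗ Finsupp.lsingle t)), fun f => ?_⟩
  induction f using Finsupp.induction_linear with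
  | zero => simp [ev]
  | add f g hf hg => rw [ev_add, hf, hg, map_add]
  | single t b => rw [ev_single]; rfl

/-- Evaluation at `b`, as an additive map. -/
def evalAt (b : Aᵐᵒᵖ) : NA k A →+ k where
  toFun φ := φ.toDA b
  map_zero' := rfl
  map_add' _ _ := rfl

lemma sum_lmul_toDA (ξ : T → NA k A) (c : T →₀ Aᵐᵒᵖ) (b : Aᵐᵒᵖ) :
    (c.sum fun t b' => NA.lmul b' (ξ t)).toDA b = ev ξ (b • c) := by
  change evalAt b (c.sum fun t b' => NA.lmul b' (ξ t)) = _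
  rw [map_finsuppSum]
  unfold ev
  rw [Finsupp.sum_smul_index' (fun t => DA.map_zero' _)]
  rfl

lemma ev_dualMap (δ : (T' →₀ Aᵐᵒᵖ) →ₗ[Aᵐᵒᵖ] (T →₀ Aᵐᵒᵖ)) (ξ : T → NA k A) (f : T' →₀ Aᵐᵒᵖ) :
    ev (dualMap δ ξ) f = ev ξ (δ f) := by
  induction f using Finsupp.induction_linear with
  | zero => simp [ev]
  | add f g hf hg => rw [ev_add, hf, hg, map_add, ev_add]
  | single t' b =>
    rw [ev_single, dualMap_apply]
    have h1 : single t' b = b • single t' (1 : Aᵐᵒᵖ) := by simp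
    rw [h1, map_smul, sum_lmul_toDA]

theorem dualMap_exists (δ : (T' →₀ Aᵐᵒᵖ) →ₗ[Aᵐᵒᵖ] (T →₀ Aᵐᵒᵖ)) (η : T' → NA k A)
    (h : ∀ x, δ x = 0 → ev η x = 0) : ∃ ξ : T → NA k A, dualMap δ ξ = η := by
  let δk : (T' →₀ Aᵐᵒᵖ) →ₗ[k] (T →₀ Aᵐᵒᵖ) := δ.restrictScalars k
  have hker : LinearMap.ker δk ≤ LinearMap.ker (evLin η) := fun x hx => h x hx
  obtain ⟨ζ, hζ⟩ : ∃ ζ : (T →₀ Aᵐᵒᵖ) →ₗ[k] k, ζ ∘ₗ δk = evLin η := by
    have := (LinearMap.range_dualMap_eq_dualAnnihilator_ker δk)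
    have hmem : evLin η ∈ (LinearMap.ker δk).dualAnnihilator := by
      rw [Submodule.mem_dualAnnihilator]
      intro x hx
      exact hker hx
    rw [← this] at hmem
    obtain ⟨ζ, hζ⟩ := hmem
    exact ⟨ζ, hζ⟩
  obtain ⟨ξ, hξ⟩ := ev_surjective ζ
  refine ⟨ξ, ev_injective fun f => ?_⟩
  rw [ev_dualMap, hξ]
  exact LinearMap.congr_fun hζ f

theorem dualMap_exact (δ' : (T'' →₀ Aᵐᵒᵖ) →ₗ[Aᵐᵒᵖ] (T' →₀ Aᵐᵒᵖ))
    (δ : (T' →₀ Aᵐᵒᵖ) →ₗ[Aᵐᵒᵖ] (T →₀ Aᵐᵒᵖ)) (h : ∀ x, δ x = 0 ↔ ∃ y, δ' y = x) :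
    Function.Exact (dualMap (k := k) δ) (dualMap (k := k) δ') := by
  intro η
  constructor
  · intro hη
    apply dualMap_exists
    intro x hx
    obtain ⟨y, rfl⟩ := (h x).1 hx
    rw [← ev_dualMap, hη]
    simp [ev]
  · rintro ⟨ξ, rfl⟩
    apply ev_injective
    intro f
    rw [ev_dualMap, ev_dualMap, (h _).2 ⟨f, rfl⟩]
    simp [ev]

theorem dualMap_surjective (δ : (T' →₀ Aᵐᵒᵖ) →ₗ[Aᵐᵒᵖ] (T →₀ Aᵐᵒᵖ)) (h : Function.Injective δ) :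
    Function.Surjective (dualMap (k := k) δ) := by
  intro η
  apply dualMap_exists
  intro x hx
  rw [(injective_iff_map_eq_zero δ).1 h x hx]
  simp [ev]

end Vale.Agent.P176.Deloop
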