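import Vale.Agent.P176.Deloop.DualDefs

/-!
# A kernel element of the Nakayama twist obstructs lifting

Let `δ : (T' →₀ B) → (T →₀ B)` be `B`-linear, `B = Aᵐᵒᵖ`, and `z ≠ 0` in `T' →₀ DA k B` with `nu δ z = 0`.
Then some `A`-linear `h : NA → (T' → NA)` does not factor through `dualMap δ : (T → NA) → (T' → NA)`.

Proof sketch. For `h : NA →ₗ[A] (S → NA)` and `y : S →₀ DA k B` put
`pair h y = y.sum (fun s φ => (h (NA.of φ) s).toDA 1)`; it is additive in `y`.
Adjointness: `pair (dualMap δ ∘ₗ g) y = pair g (nu δ y)` for `g : NA →ₗ[A] (T → NA)`. By additivity take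
`y = single t' φ`. With `c = δ (single t' 1)`:
left side `= (c.sum fun t b => lmul b (g φ t)) 1 = c.sum fun t b => (g φ t) (1 * b)`;
right side: `nu δ (single t' φ) = theta c φ` has `t`-component `DA.rmul (c t) φ`, and
`NA.of (DA.rmul b φ) = (unop b) • NA.of φ` (definition of the `A`-action), so by `A`-linearity of `g`,
`g (of (rmul b φ)) t = unop b • g (of φ) t`, whose value at `1` is `(g φ t) (b * 1)`.
Hence `pair (dualMap δ ∘ₗ g) z = pair g 0 = 0` for all `g`. On the other hand choose `t₀` with `z t₀ ≠ 0` and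
`b` with `z t₀ b ≠ 0`, and let `h φ = Pi.single t₀ (lmul b φ)` (i.e. `LinearMap.single .. ∘ₗ lmul b`); then
`pair h z = (z t₀) (1 * b) ≠ 0`.
-/

universe u

namespace Vale.Agent.P176.Deloop

open Vale.Agent.P176.Rickard MulOpposite Finsupp

variable {k : Type u} {A : Type u} [Field k] [Ring A] [Algebra k A]
variable {T T' : Type u}

/-- evaluation at `1`, as an additive map -/
def evOne : NA k A →+ k where
  toFun φ := φ.toDA 1
  map_zero' := rfl
  map_add' _ _ := rfl

@[simp] lemma evOne_apply (φ : NA k A) : evOne φ = φ.toDA 1 := rfl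

/-- the pairing of the proof sketch, as an additive map in the second variable -/
noncomputable def pairHom {S : Type u} (h : NA k A →ₗ[A] (S → NA k A)) : (S →₀ DA k Aᵐᵒᵖ) →+ k :=
  Finsupp.liftAddHom fun s =>
    { toFun := fun φ => (h (NA.of φ) s).toDA 1
      map_zero' := by
        rw [NA.of_zero, map_zero]
        rfl
      map_add' := fun φ ψ => by
        rw [NA.of_add, map_add]
        rfl }

lemma pairHom_single {S : Type u} (h : NA k A →ₗ[A] (S → NA k A)) (s : S) (φ : DA k Aᵐᵒᵖ) :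
    pairHom h (single s φ) = (h (NA.of φ) s).toDA 1 := by
  simp [pairHom]

lemma pairHom_apply {S : Type u} (h : NA k A →ₗ[A] (S → NA k A)) (y : S →₀ DA k Aᵐᵒᵖ) :
    pairHom h y = y.sum fun s φ => (h (NA.of φ) s).toDA 1 := by
  simp [pairHom, Finsupp.liftAddHom_apply]

lemma of_rmul (b : Aᵐᵒᵖ) (φ : DA k Aᵐᵒᵖ) : NA.of (DA.rmul b φ) = (unop b) • (NA.of φ : NA k A) := rfl

lemma pairHom_adj (δ : (T' →₀ Aᵐᵒᵖ) →ₗ[Aᵐᵒᵖ] (T →₀ Aᵐᵒᵖ)) (g : NA k A →ₗ[A] (T → NA k A))
    (y : T' →₀ DA k Aᵐᵒᵖ) : pairHom (dualMap δ ∘ₗ g) y = pairHom g (nu δ y) := by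
  induction y using Finsupp.induction_linear with
  | zero => simp
  | add x y hx hy => rw [map_add, map_add, map_add, hx, hy]
  | single t' φ =>
    rw [pairHom_single, nu_single, pairHom_apply, LinearMap.comp_apply, dualMap_apply]
    have h1 : ((δ (single t' 1)).sum fun t b => NA.lmul b (g (NA.of φ) t)).toDA 1 =
        (δ (single t' 1)).sum fun t b => (g (NA.of φ) t).toDA b := by
      have := map_finsuppSum (evOne (k := k) (A := A)) (δ (single t' 1))
        (fun t b => NA.lmul b (g (NA.of φ) t))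
      simp only [evOne_apply, NA.lmul_toDA_apply, one_mul] at this
      exact this
    rw [h1]
    have h2 : (theta (δ (single t' 1)) φ : T →₀ DA k Aᵐᵒᵖ) =
        (δ (single t' 1)).mapRange (fun a => DA.rmul a φ) (DA.rmul_zero φ) := rfl
    rw [h2, Finsupp.sum_mapRange_index]
    · apply Finsupp.sum_congr
      intro t _
      rw [of_rmul, map_smul, Pi.smul_apply, NA.smul_toDA_apply, op_unop, mul_one]
    · intro t
      rw [NA.of_zero, map_zero]
      rfl

theorem exists_not_lift (δ : (T' →₀ Aᵐᵒᵖ) →ₗ[Aᵐᵒᵖ] (T →₀ Aᵐᵒᵖ)) (z : T' →₀ DA k Aᵐᵒᵖ)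
    (hz : z ≠ 0) (hν : nu δ z = 0) :
    ∃ h : NA k A →ₗ[A] (T' → NA k A),
      ¬ ∃ g : NA k A →ₗ[A] (T → NA k A), dualMap δ ∘ₗ g = h := by
  classical
  obtain ⟨t₀, ht₀⟩ : ∃ t₀, z t₀ ≠ 0 := by
    by_contra hcon
    push Not at hcon
    exact hz (Finsupp.ext hcon)
  obtain ⟨b, hb⟩ : ∃ b, z t₀ b ≠ 0 := by
    by_contra hcon
    push Not at hcon
    exact ht₀ (DA.ext hcon)
  refine ⟨LinearMap.single A (fun _ : T' => NA k A) t₀ ∘ₗ NA.lmul b, ?_⟩
  rintro ⟨g, hg⟩
  have h1 : pairHom (dualMap δ ∘ₗ g) z = 0 := by rw [pairHom_adj, hν, map_zero]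
  rw [hg, pairHom_apply, Finsupp.sum_eq_single t₀] at h1
  · apply hb
    simpa using h1
  · intro s _ hs
    simp [Pi.single_eq_of_ne hs]
  · intro _
    rw [NA.of_zero, map_zero]
    rfl

end Vale.Agent.P176.Deloop
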