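import Vale.Agent.P176.Rickard.Nakayama
import Vale.Agent.P176.Rickard.BassPapp

/-!
# Dualizing free right modules: definitions

`B = Aᵐᵒᵖ`; left `B`-modules are right `A`-modules. `NA k A` is the `k`-dual of `B`, seen as a left
`A`-module. For a `B`-linear map `δ : (T' →₀ B) → (T →₀ B)` between free right `A`-modules,
`dualMap δ : (T → NA) → (T' → NA)` is (a model of) its `k`-dual, an `A`-linear map between injective
left `A`-modules.
-/

universe u

namespace Vale.Agent.P176.Deloop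

open Vale.Agent.P176.Rickard MulOpposite Finsupp

variable (k : Type u) (A : Type u) [Field k] [Ring A] [Algebra k A]

/-- The `k`-dual of `Aᵐᵒᵖ`, as a left `A`-module. -/
def NA : Type u := DA k Aᵐᵒᵖ

namespace NA

instance : AddCommGroup (NA k A) := inferInstanceAs (AddCommGroup (DA k Aᵐᵒᵖ))

variable {k A}

/-- The identity map from the dual of `Aᵐᵒᵖ`. -/
def of (φ : DA k Aᵐᵒᵖ) : NA k A := φ

/-- The identity map to the dual of `Aᵐᵒᵖ`. -/
def toDA (φ : NA k A) : DA k Aᵐᵒᵖ := φ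

@[simp] lemma toDA_of (φ : DA k Aᵐᵒᵖ) : (of φ).toDA = φ := rfl
@[simp] lemma of_toDA (φ : NA k A) : of φ.toDA = φ := rfl
@[simp] lemma toDA_add (φ ψ : NA k A) : (φ + ψ).toDA = φ.toDA + ψ.toDA := rfl
@[simp] lemma toDA_zero : (0 : NA k A).toDA = 0 := rfl
@[simp] lemma of_add (φ ψ : DA k Aᵐᵒᵖ) : of (φ + ψ) = of φ + of ψ := rfl
@[simp] lemma of_zero : of (0 : DA k Aᵐᵒᵖ) = 0 := rfl

@[ext] lemma ext {φ ψ : NA k A} (h : ∀ x, φ.toDA x = ψ.toDA x) : φ = ψ := DA.ext h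

/-- Left action of `A`: `(a • φ) x = φ (op a * x)`. -/
instance : Module A (NA k A) where
  smul a φ := of (DA.rmul (op a) φ.toDA)
  one_smul φ := by ext x; change φ.toDA (op 1 * x) = φ.toDA x; simp
  mul_smul a b φ := by
    ext x; change φ.toDA (op (a * b) * x) = φ.toDA (op b * (op a * x)); rw [op_mul, mul_assoc]
  smul_zero a := by ext x; rfl
  smul_add a φ ψ := by ext x; rfl
  add_smul a b φ := by
    ext x; change φ.toDA (op (a + b) * x) = φ.toDA (op a * x) + φ.toDA (op b * x)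
    rw [op_add, add_mul, DA.map_add']
  zero_smul φ := by ext x; change φ.toDA (op 0 * x) = 0; rw [op_zero, zero_mul, DA.map_zero']

@[simp] lemma smul_toDA_apply (a : A) (φ : NA k A) (x : Aᵐᵒᵖ) : (a • φ).toDA x = φ.toDA (op a * x) := rfl

/-- The action of `b : Aᵐᵒᵖ` (a right action of `A`), as an `A`-linear endomorphism:
`(lmul b φ) x = φ (x * b)`. -/
def lmul (b : Aᵐᵒᵖ) : NA k A →ₗ[A] NA k A where
  toFun φ := of (b • φ.toDA)
  map_add' φ ψ := by ext x; rfl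
  map_smul' a φ := by
    ext x; change φ.toDA (op a * (x * b)) = φ.toDA (op a * x * b); rw [mul_assoc]

@[simp] lemma lmul_toDA_apply (b : Aᵐᵒᵖ) (φ : NA k A) (x : Aᵐᵒᵖ) : (lmul b φ).toDA x = φ.toDA (x * b) :=
  rfl

@[simp] lemma lmul_zero (φ : NA k A) : lmul (0 : Aᵐᵒᵖ) φ = 0 := by
  ext x; simp [DA.map_zero']

lemma lmul_add (b c : Aᵐᵒᵖ) (φ : NA k A) : lmul (b + c) φ = lmul b φ + lmul c φ := by
  ext x; simp [mul_add, DA.map_add']

end NA

variable {k A}
variable {T T' T'' : Type u}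

/-- The dual of a map between free right modules. -/
noncomputable def dualMap (δ : (T' →₀ Aᵐᵒᵖ) →ₗ[Aᵐᵒᵖ] (T →₀ Aᵐᵒᵖ)) :
    (T → NA k A) →ₗ[A] (T' → NA k A) :=
  LinearMap.pi fun t' =>
    (δ (single t' 1)).sum fun t b => NA.lmul b ∘ₗ LinearMap.proj t

lemma dualMap_apply (δ : (T' →₀ Aᵐᵒᵖ) →ₗ[Aᵐᵒᵖ] (T →₀ Aᵐᵒᵖ)) (ξ : T → NA k A) (t' : T') :
    dualMap δ ξ t' = (δ (single t' 1)).sum fun t b => NA.lmul b (ξ t) := by
  simp [dualMap, Finsupp.sum, LinearMap.sum_apply]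

/-- The pairing of a family `ξ : T → NA` with an element of the free module `T →₀ Aᵐᵒᵖ`. -/
noncomputable def ev (ξ : T → NA k A) (f : T →₀ Aᵐᵒᵖ) : k :=
  f.sum fun t b => (ξ t).toDA b

end Vale.Agent.P176.Deloop
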