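import Mathlib

/-!
# Vanishing of `Ext` on simple modules implies vanishing on finitely generated modules

Proof sketch. `M` is a Noetherian and Artinian module. Consider the set of submodules `M'` of `M` with
`Subsingleton (Ext (ModuleCat.of A M') L e)`; it contains `⊥` (a zero object). Take a maximal element `M'`
(Noetherian). If `M' ≠ ⊤`, the nonzero Artinian module `M ⧸ M'` has a simple submodule (`IsAtomic`), whose
preimage `M''` in `M` satisfies `M' < M''` and `M'' ⧸ M' `simple; the short exact sequence
`0 → M' → M'' → simple → 0` and `Ext.contravariant_sequence_exact₂` give vanishing for `M''`: contradiction.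
Alternatively use induction on the length or on the `k`-dimension.
-/

universe u

open CategoryTheory Abelian

namespace Vale.Agent.P176.Deloop

theorem ext_subsingleton_of_isFiniteLength {A : Type u} [Ring A] (L : ModuleCat.{u} A) (e : ℕ)
    (h : ∀ S : ModuleCat.{u} A, IsSimpleModule A S → Subsingleton (Ext S L e))
    (M : Type u) [AddCommGroup M] [Module A M] (hM : IsFiniteLength A M) :
    Subsingleton (Ext (ModuleCat.of A M) L e) := by
  induction hM with
  | @of_subsingleton M _ _ _ =>
    have hz : Limits.IsZero (ModuleCat.of A M) := ModuleCat.isZero_of_subsingleton _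
    have h0 : ∀ z : Ext (ModuleCat.of A M) L e, z = 0 := by
      intro z
      rw [← z.mk₀_id_comp, hz.eq_of_src (𝟙 _) 0, Ext.mk₀_zero, Ext.zero_comp]
    exact ⟨fun x y => by rw [h0 x, h0 y]⟩
  | @of_simple_quotient M _ _ N hN _ ih =>
    let S : ShortComplex (ModuleCat.{u} A) :=
      ShortComplex.mk (ModuleCat.ofHom N.subtype) (ModuleCat.ofHom N.mkQ) (by ext; simp)
    have hS : S.ShortExact :=
      { exact := (ShortComplex.ShortExact.moduleCat_exact_iff_function_exact _).mpr
          (LinearMap.exact_subtype_mkQ N)
        mono_f := (ModuleCat.mono_iff_injective _).mpr N.injective_subtype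
        epi_g := (ModuleCat.epi_iff_surjective _).mpr N.mkQ_surjective }
    have h3 : Subsingleton (Ext S.X₃ L e) := h (ModuleCat.of A (M ⧸ N)) hN
    have h1 : Subsingleton (Ext S.X₁ L e) := ih
    have h0 : ∀ z : Ext S.X₂ L e, z = 0 := by
      intro z
      obtain ⟨w, rfl⟩ := Ext.contravariant_sequence_exact₂ hS L z (Subsingleton.elim _ _)
      rw [Subsingleton.elim w 0, Ext.comp_zero]
    exact ⟨fun x y => by rw [h0 x, h0 y]⟩

theorem ext_subsingleton_of_simple {A : Type u} [Ring A] [IsArtinianRing A]
    (L : ModuleCat.{u} A) (e : ℕ)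
    (h : ∀ S : ModuleCat.{u} A, IsSimpleModule A S → Subsingleton (Ext S L e))
    (M : ModuleCat.{u} A) [Module.Finite A M] : Subsingleton (Ext M L e) := by
  have hfl : IsFiniteLength A M :=
    isFiniteLength_iff_isNoetherian_isArtinian.mpr ⟨inferInstance, inferInstance⟩
  exact ext_subsingleton_of_isFiniteLength L e h M hfl

end Vale.Agent.P176.Deloop
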