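import Vale.Agent.P176.Deloop.Defs
import Vale.Agent.P176.Deloop.Dual1
import Vale.Agent.P176.Deloop.Dual2
import Vale.Agent.P176.Deloop.Dual3
import Vale.Agent.P176.Deloop.Cores
import Vale.Agent.P176.Deloop.Simple
import Vale.Agent.P176.Rickard.FFR
import Vale.Agent.P176.Rickard.DALemmas

/-!
# The big finitistic dimension of the opposite algebra is bounded by the derived delooping level
-/

universe u

open CategoryTheory Abelian MulOpposite

namespace Vale.Agent.P176.Deloop

open Vale.Agent.P176.Rickard

/-- A module of finite projective dimension which is not at most `m`. -/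
lemma exists_exact_dimension' {B : Type u} [Ring B] (X : ModuleCat.{u} B)
    (hX : projectiveDimension X ≠ ⊤) (m : ℕ) (hm : ¬ projectiveDimension X ≤ m) :
    ∃ d : ℕ, m ≤ d ∧ HasProjectiveDimensionLT X (d + 2) ∧ ¬ HasProjectiveDimensionLT X (d + 1) := by
  classical
  rw [projectiveDimension_ne_top_iff] at hX
  rw [projectiveDimension_le_iff] at hm
  have hex : ∃ e, HasProjectiveDimensionLT X e := by
    obtain ⟨m, hm⟩ := hX
    exact ⟨m + 1, hm⟩
  have hfind := Nat.find_spec hex
  have hlt : m + 1 < Nat.find hex := by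
    by_contra hcon
    exact hm (hasProjectiveDimensionLT_of_ge X (Nat.find hex) (m + 1) (not_lt.1 hcon))
  obtain ⟨d, hd⟩ : ∃ d, Nat.find hex = d + 2 := ⟨Nat.find hex - 2, by omega⟩
  refine ⟨d, by omega, hd ▸ hfind, ?_⟩
  exact Nat.find_min hex (by omega)

/-- The core statement: if `Ext^e(S, L) = 0` for all simple left modules `S` and all left modules `L` of
injective dimension at most `e`, for all `e > m`, then every right module of finite projective
dimension has projective dimension at most `m`. -/
theorem projectiveDimension_le_of_vanishing (k A : Type u) [Field k] [Ring A] [Algebra k A]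
    [Module.Finite k A] (m : ℕ)
    (h : ∀ S : ModuleCat.{u} A, IsSimpleModule A S → ∀ (L : ModuleCat.{u} A) (e : ℕ), m < e →
      HasInjectiveDimensionLT L (e + 1) → Subsingleton (Ext S L e))
    (X : ModuleCat.{u} Aᵐᵒᵖ) (hX : projectiveDimension X ≠ ⊤) : projectiveDimension X ≤ m := by
  by_contra hcon
  obtain ⟨d, hmd, hd2, hd1⟩ := exists_exact_dimension' X hX m hcon
  obtain ⟨T, D, ε, -, -, hex, hempty, hret⟩ := exists_ffr d X hd2
  have hfin : Module.Finite k Aᵐᵒᵖ := Module.Finite.equiv (opLinearEquiv k : A ≃ₗ[k] Aᵐᵒᵖ)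
  have hN : IsNoetherianRing Aᵐᵒᵖ := isNoetherian_of_tower k inferInstance
  have hArt : IsArtinianRing A := IsArtinianRing.of_finite k A
  have hinj : Function.Injective (D d) := by
    rw [injective_iff_map_eq_zero]
    intro x hx
    obtain ⟨y, rfl⟩ := (hex d x).1 hx
    have := hempty (d + 1 + 1) (by omega)
    rw [Subsingleton.elim y 0, map_zero]
  have hnu : ¬ Function.Injective (nu (k := k) (D d)) := by
    intro hi
    have := finsupp_injective (A := Aᵐᵒᵖ) (T (d + 1)) (DA k Aᵐᵒᵖ)
    obtain ⟨r, hr⟩ := Module.Injective.extension_property Aᵐᵒᵖ _ _ _ (nu (k := k) (D d)) hi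
      LinearMap.id
    exact hd1 (hret (exists_retraction_of_nu (D d) r hr))
  obtain ⟨z, hz, hνz⟩ : ∃ z, z ≠ 0 ∧ nu (k := k) (D d) z = 0 := by
    rw [injective_iff_map_eq_zero] at hnu
    push Not at hnu
    obtain ⟨z, h1, h2⟩ := hnu
    exact ⟨z, h2, h1⟩
  obtain ⟨f, hf⟩ := exists_not_lift (D d) z hz hνz
  apply hf
  have hE : ∀ n, Module.Injective A (T n → NA k A) := fun n => inferInstance
  have hexE : ∀ n, n < d → Function.Exact (dualMap (k := k) (D n)) (dualMap (k := k) (D (n + 1))) :=
    fun n _ => dualMap_exact (D (n + 1)) (D n) (hex n)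
  have hsurj : Function.Surjective (dualMap (k := k) (D d)) := dualMap_surjective (D d) hinj
  have hL := hasInjectiveDimensionLT_ker d (fun n => T n → NA k A) hE
    (fun n => dualMap (k := k) (D n)) hexE hsurj
  refine exists_lift_of_ext_subsingleton d (fun n => T n → NA k A) hE
    (fun n => dualMap (k := k) (D n)) hexE hsurj (NA k A) ?_ f
  have : Module.Finite A (ModuleCat.of A (NA k A)) := inferInstanceAs (Module.Finite A (NA k A))
  exact ext_subsingleton_of_simple _ (d + 1)
    (fun S hS => h S hS _ (d + 1) (by omega) hL) (ModuleCat.of A (NA k A))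

/-- Big finitistic dimension of the opposite algebra is at most the derived delooping level. -/
theorem projectiveDimension_le_of_derivedDelooping (k A : Type u) [Field k] [Ring A] [Algebra k A]
    [Module.Finite k A] (m : ℕ)
    (h : ∀ S : ModuleCat.{u} A, IsSimpleModule A S → DerivedDelooping m 0 S)
    (X : ModuleCat.{u} Aᵐᵒᵖ) (hX : projectiveDimension X ≠ ⊤) : projectiveDimension X ≤ m :=
  projectiveDimension_le_of_vanishing k A m
    (fun S hS L e he hL => (h S hS).ext_subsingleton L e (by omega) hL) X hX

/-- Big finitistic dimension of the opposite algebra is at most the delooping level. -/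
theorem projectiveDimension_le_of_isDelooped (k A : Type u) [Field k] [Ring A] [Algebra k A]
    [Module.Finite k A] (m : ℕ)
    (h : ∀ S : ModuleCat.{u} A, IsSimpleModule A S → IsDelooped 1 m S)
    (X : ModuleCat.{u} Aᵐᵒᵖ) (hX : projectiveDimension X ≠ ⊤) : projectiveDimension X ≤ m :=
  projectiveDimension_le_of_derivedDelooping k A m
    (fun S hS => DerivedDelooping.base (Nat.zero_le m) (h S hS)) X hX

end Vale.Agent.P176.Deloop
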